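import Mathlib

/-!
# P207: uniqueness of the bounded positive solution of the matrix Riccati equation
-/

open Set Filter Topology Matrix

noncomputable section

namespace Vale.Agent.P207.Q.H130

variable {κ : Type*} [Fintype κ]

/-- Two solutions of `U' = K - U ^ 2` which are bounded in the past and `≥ lam > 0` coincide. -/
theorem riccati_unique {U V K : ℝ → Matrix κ κ ℝ} {lam B : ℝ} (hlam : 0 < lam)
    (hU : ∀ i j t, HasDerivAt (fun s => U s i j) (K t i j - (U t * U t) i j) t)
    (hV : ∀ i j t, HasDerivAt (fun s => V s i j) (K t i j - (V t * V t) i j) t)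
    (pU : ∀ t x, lam * (x ⬝ᵥ x) ≤ x ⬝ᵥ (U t *ᵥ x))
    (pV : ∀ t x, lam * (x ⬝ᵥ x) ≤ x ⬝ᵥ (V t *ᵥ x))
    (bU : ∀ t i j, |U t i j| ≤ B) (bV : ∀ t i j, |V t i j| ≤ B) : U = V := by
  set W : ℝ → Matrix κ κ ℝ := fun t => U t - V t with hW
  have hWd : ∀ i j t, HasDerivAt (fun s => W s i j) (-(U t * W t + W t * V t) i j) t := by
    intro i j t
    refine ((hU i j t).sub (hV i j t)).congr_deriv ?_
    have : U t * U t - V t * V t = U t * W t + W t * V t := by
      simp only [hW]; noncomm_ring
    rw [← this]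
    rw [Matrix.sub_apply]
    ring
  set E : ℝ → ℝ := fun t => ∑ i, ∑ j, W t i j ^ 2 with hE
  have hEd : ∀ t, HasDerivAt E (∑ i, ∑ j, 2 * W t i j * (-(U t * W t + W t * V t) i j)) t := by
    intro t
    refine HasDerivAt.fun_sum fun i _ => HasDerivAt.fun_sum fun j _ => ?_
    refine ((hWd i j t).pow 2).congr_deriv ?_
    simp
  have hle : ∀ t, (∑ i, ∑ j, 2 * W t i j * (-(U t * W t + W t * V t) i j)) ≤ -(4 * lam) * E t := by
    intro t
    have h1 : lam * E t ≤ ∑ i, ∑ j, W t i j * (U t * W t) i j := by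
      have h2 : ∑ i, ∑ j, W t i j * (U t * W t) i j =
          ∑ j, (fun i => W t i j) ⬝ᵥ (U t *ᵥ fun i => W t i j) := by
        rw [Finset.sum_comm]
        rfl
      have h3 : lam * E t = ∑ j, lam * ((fun i => W t i j) ⬝ᵥ (fun i => W t i j)) := by
        rw [← Finset.mul_sum]
        congr 1
        change ∑ i, ∑ j, W t i j ^ 2 = _
        rw [Finset.sum_comm]
        simp only [dotProduct, pow_two]
      rw [h2, h3]
      exact Finset.sum_le_sum fun j _ => pU t _
    have h1' : lam * E t ≤ ∑ i, ∑ j, W t i j * (W t * V t) i j := by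
      have h2 : ∑ i, ∑ j, W t i j * (W t * V t) i j = ∑ i, (W t i) ⬝ᵥ (V t *ᵥ (W t i)) := by
        refine Finset.sum_congr rfl fun i _ => ?_
        simp only [dotProduct, mul_apply, mulVec, Finset.mul_sum]
        rw [Finset.sum_comm]
        refine Finset.sum_congr rfl fun k _ => Finset.sum_congr rfl fun l _ => ?_
        ring
      have h3 : lam * E t = ∑ i, lam * ((W t i) ⬝ᵥ (W t i)) := by
        rw [← Finset.mul_sum]
        congr 1
        change ∑ i, ∑ j, W t i j ^ 2 = _
        simp only [dotProduct, pow_two]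
      rw [h2, h3]
      exact Finset.sum_le_sum fun j _ => pV t _
    have h4 : (∑ i, ∑ j, 2 * W t i j * (-(U t * W t + W t * V t) i j)) =
        -2 * ((∑ i, ∑ j, W t i j * (U t * W t) i j) + ∑ i, ∑ j, W t i j * (W t * V t) i j) := by
      rw [← Finset.sum_add_distrib, Finset.mul_sum]
      refine Finset.sum_congr rfl fun i _ => ?_
      rw [← Finset.sum_add_distrib, Finset.mul_sum]
      refine Finset.sum_congr rfl fun j _ => ?_
      rw [Matrix.add_apply]
      ring
    rw [h4]
    linarith
  set F : ℝ → ℝ := fun t => E t * Real.exp (4 * lam * t) with hF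
  have hFd : ∀ t, HasDerivAt F ((∑ i, ∑ j, 2 * W t i j * (-(U t * W t + W t * V t) i j)) *
      Real.exp (4 * lam * t) + E t * (Real.exp (4 * lam * t) * (4 * lam))) t := by
    intro t
    refine (hEd t).mul ?_
    have := ((hasDerivAt_id t).const_mul (4 * lam)).exp
    simpa using this
  have hanti : Antitone F := by
    apply antitone_of_deriv_nonpos (fun t => (hFd t).differentiableAt)
    intro t
    rw [(hFd t).deriv]
    have := mul_le_mul_of_nonneg_right (hle t) (Real.exp_pos (4 * lam * t)).le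
    linarith
  have hE0 : ∀ t, 0 ≤ E t := fun t =>
    Finset.sum_nonneg fun i _ => Finset.sum_nonneg fun j _ => sq_nonneg _
  have hEB : ∀ t, E t ≤ ∑ _i : κ, ∑ _j : κ, (2 * B) ^ 2 := by
    intro t
    refine Finset.sum_le_sum fun i _ => Finset.sum_le_sum fun j _ => ?_
    rw [sq_le_sq]
    change |U t i j - V t i j| ≤ _
    have h1 := bU t i j
    have h2 := bV t i j
    have h3 : |U t i j - V t i j| ≤ |U t i j| + |V t i j| := abs_sub _ _
    refine h3.trans ((by linarith : _ ≤ 2 * B).trans (le_abs_self _))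
  have hEz : ∀ t, E t = 0 := by
    intro t
    refine le_antisymm ?_ (hE0 t)
    have h1 : ∀ s ≤ t, E t * Real.exp (4 * lam * t) ≤
        (∑ _i : κ, ∑ _j : κ, (2 * B) ^ 2) * Real.exp (4 * lam * s) := by
      intro s hs
      refine (hanti hs).trans ?_
      exact mul_le_mul_of_nonneg_right (hEB s) (Real.exp_pos _).le
    have h2 : Tendsto (fun s => (∑ _i : κ, ∑ _j : κ, (2 * B) ^ 2) * Real.exp (4 * lam * s)) atBot
        (𝓝 ((∑ _i : κ, ∑ _j : κ, (2 * B) ^ 2) * 0)) := by
      refine Tendsto.const_mul _ ?_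
      refine Real.tendsto_exp_atBot.comp ?_
      exact tendsto_id.const_mul_atBot (by positivity)
    rw [mul_zero] at h2
    have h3 : E t * Real.exp (4 * lam * t) ≤ 0 :=
      ge_of_tendsto h2 ((eventually_le_atBot t).mono h1)
    by_contra hcon
    have := mul_pos (not_le.1 hcon) (Real.exp_pos (4 * lam * t))
    linarith
  funext t
  ext i j
  have h1 := hEz t
  rw [hE] at h1
  have h2 := (Finset.sum_eq_zero_iff_of_nonneg (fun i _ =>
    Finset.sum_nonneg fun j _ => sq_nonneg (W t i j))).1 h1 i (Finset.mem_univ _)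
  have h3 := (Finset.sum_eq_zero_iff_of_nonneg (fun j _ => sq_nonneg (W t i j))).1 h2 j
    (Finset.mem_univ _)
  have h4 : W t i j = 0 := by simpa using h3
  exact sub_eq_zero.1 h4

end Vale.Agent.P207.Q.H130
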